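import Vale.Agent.P236.R2.H383.CplxA
import Vale.Agent.P236.R2.H383.Main
import Vale.Agent.P236.R2.H489.Sharp

/-!
# P236: at the prime 3 the Toda-Ravenel targets `h_0 b_j^3` vanish on `E_2` exactly for `j ≥ 1`

`V`, `CoA s`, `cobA s` are the cobar complex of the full dual Steenrod algebra at the prime `3`
(all `ξ_n` and `τ_n`), `incl` is the inclusion of the polynomials in the `ξ_n`, `h j` and `b j`
are the cocycles of `h_j` and `b_j`, and `f * sh s g` is the juxtaposition of a cochain `f` of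
length `s` and of a cochain `g`.
-/

namespace Vale.Agent.Results.P236.TodaTargets

open Vale.Agent.P236.R2.H383

theorem result :
    -- the cobar complex is a complex
    ((∀ s, ∀ z ∈ CoA s, cobA s z ∈ CoA (s + 1)) ∧ (∀ s z, cobA (s + 1) (cobA s z) = 0)) ∧
    -- `h_j` and `b_j` are nonzero classes of `Ext^1` and `Ext^2`
    (∀ j, (incl (h j) ∈ CoA 1 ∧ cobA 1 (incl (h j)) = 0 ∧ ¬ BdA 0 (incl (h j))) ∧
      (incl (b j) ∈ CoA 2 ∧ cobA 2 (incl (b j)) = 0 ∧ ¬ BdA 1 (incl (b j)))) ∧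
    -- `b_j^3 = 0` in `Ext^6` for all `j ≥ 2`
    (∀ j, 2 ≤ j → BdA 5 (incl (b j * sh 2 (b j) * sh 4 (b j)))) ∧
    -- `h_0 b_j^3 = 0` in `Ext^7` exactly when `j ≥ 1`
    (∀ j, BdA 6 (incl (h 0 * sh 1 (b j) * sh 3 (b j) * sh 5 (b j))) ↔ 1 ≤ j) ∧
    -- `h_j b_{j+1}^2 = 0` in `Ext^5` and `b_{j+1} h_{j+1} = b_j h_{j+2}` in `Ext^3`
    (∀ j, BdA 4 (incl (h j * sh 1 (b (j + 1)) * sh 3 (b (j + 1)))) ∧
      BdA 2 (incl (b (j + 1) * sh 2 (h (j + 1)) - b j * sh 2 (h (j + 2))))) :=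
  ⟨⟨fun _ _ hz => cobA_mem hz, cobA_cobA⟩,
    fun j => ⟨⟨incl_mem (h_mem j), by rw [cobA_incl, cob_h, map_zero],
        fun e => Vale.Agent.P236.R2.H489.not_bd_h j (bdA_incl_iff.1 e)⟩,
      ⟨incl_mem (b_mem j), by rw [cobA_incl, cob_b, map_zero],
        fun e => Vale.Agent.P236.R2.H489.not_bd_b j (bdA_incl_iff.1 e)⟩⟩,
    fun j hj => (bd_bbb j hj).incl, fun j => ⟨fun e => by
      rcases Nat.eq_zero_or_pos j with h0 | h0
      · subst h0
        exact absurd (bdA_incl_iff.1 e) Vale.Agent.P236.R2.H489.not_bd_h0b0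
      · exact h0, fun hj => (bd_hbbb j hj).incl⟩,
    fun j => ⟨(bd_hbb j).incl, (bd_bh j).incl⟩⟩

end Vale.Agent.Results.P236.TodaTargets
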